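import Mathlib

open Finset

namespace Vale.Agent.P063

variable {ι : Type} [Fintype ι] [DecidableEq ι]

noncomputable def om (p : ℝ) (b : Bool) : ℝ := if b then p else 1 - p

noncomputable def wt (p : ℝ) (x : ι → Bool) : ℝ := ∏ e, om p (x e)

noncomputable def Ex (p : ℝ) (g : (ι → Bool) → ℝ) : ℝ := ∑ x, wt p x * g x

noncomputable def sd (p : ℝ) : ℝ := √(p * (1 - p))

noncomputable def ph (p : ℝ) (b : Bool) : ℝ := if b then (1 - p) / sd p else -p / sd p

noncomputable def chi (p : ℝ) (S : Finset ι) (x : ι → Bool) : ℝ := ∏ e ∈ S, ph p (x e)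

noncomputable def co (p : ℝ) (g : (ι → Bool) → ℝ) (S : Finset ι) : ℝ :=
  Ex p fun x => g x * chi p S x

def mg (D : Finset ι) (x z : ι → Bool) : ι → Bool := fun e => if e ∈ D then x e else z e

variable {p : ℝ}

lemma sd_pos (h0 : 0 < p) (h1 : p < 1) : 0 < sd p := Real.sqrt_pos.2 (by nlinarith)

lemma sd_sq (h0 : 0 < p) (h1 : p < 1) : sd p ^ 2 = p * (1 - p) := Real.sq_sqrt (by nlinarith)

lemma sd_le (h0 : 0 < p) (h1 : p < 1) : sd p ≤ 1 / 2 := by
  have := sd_sq h0 h1
  have := sd_pos h0 h1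
  nlinarith [sq_nonneg (p - 1 / 2)]

omit [DecidableEq ι] in
lemma wt_nonneg (h0 : 0 ≤ p) (h1 : p ≤ 1) (x : ι → Bool) : 0 ≤ wt p x :=
  prod_nonneg fun e _ => by unfold om; split_ifs <;> linarith

lemma Ex_prod (u : ι → Bool → ℝ) :
    Ex p (fun x => ∏ e, u e (x e)) = ∏ e, (p * u e true + (1 - p) * u e false) := by
  have : ∀ e, p * u e true + (1 - p) * u e false = ∑ b : Bool, om p b * u e b := fun e => by
    simp [om]
  simp only [this, Ex, wt, ← prod_mul_distrib]
  rw [Fintype.prod_sum]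

lemma Ex_const (c : ℝ) : Ex p (fun _ : ι → Bool => c) = c := by
  have := Ex_prod (ι := ι) (p := p) fun _ _ => 1
  simp only [Ex, prod_const_one, mul_one, add_sub_cancel] at this
  simp only [Ex, ← sum_mul, this, one_mul]

lemma Ex_add (g h : (ι → Bool) → ℝ) : Ex p (fun x => g x + h x) = Ex p g + Ex p h := by
  simp only [Ex, mul_add, sum_add_distrib]

lemma Ex_mul (c : ℝ) (g : (ι → Bool) → ℝ) : Ex p (fun x => c * g x) = c * Ex p g := by
  simp only [Ex, mul_sum, mul_left_comm]

lemma Ex_mul' (c : ℝ) (g : (ι → Bool) → ℝ) : Ex p (fun x => g x * c) = Ex p g * c := by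
  simp only [Ex, sum_mul, mul_assoc]

lemma Ex_sum {κ : Type} (s : Finset κ) (g : κ → (ι → Bool) → ℝ) :
    Ex p (fun x => ∑ k ∈ s, g k x) = ∑ k ∈ s, Ex p (g k) := by
  simp only [Ex, mul_sum]
  rw [sum_comm]

lemma Ex_mono (h0 : 0 ≤ p) (h1 : p ≤ 1) {g h : (ι → Bool) → ℝ} (H : ∀ x, g x ≤ h x) :
    Ex p g ≤ Ex p h :=
  sum_le_sum fun x _ => mul_le_mul_of_nonneg_left (H x) (wt_nonneg h0 h1 x)

lemma Ex_nonneg (h0 : 0 ≤ p) (h1 : p ≤ 1) {g : (ι → Bool) → ℝ} (H : ∀ x, 0 ≤ g x) :
    0 ≤ Ex p g := sum_nonneg fun x _ => mul_nonneg (wt_nonneg h0 h1 x) (H x)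

lemma Ex_abs (h0 : 0 ≤ p) (h1 : p ≤ 1) (g : (ι → Bool) → ℝ) :
    |Ex p g| ≤ Ex p fun x => |g x| :=
  (abs_sum_le_sum_abs _ _).trans (sum_le_sum fun x _ => by
    rw [abs_mul, abs_of_nonneg (wt_nonneg h0 h1 x)])

lemma Ex_cs (h0 : 0 ≤ p) (h1 : p ≤ 1) (g h : (ι → Bool) → ℝ) :
    Ex p (fun x => g x * h x) ^ 2 ≤ Ex p (fun x => g x ^ 2) * Ex p fun x => h x ^ 2 := by
  have := sum_mul_sq_le_sq_mul_sq univ (fun x => √(wt p x) * g x) fun x => √(wt p x) * h x
  have e : ∀ x : ι → Bool, √(wt p x) ^ 2 = wt p x := fun x => Real.sq_sqrt (wt_nonneg h0 h1 x)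
  simp only [mul_pow, e] at this
  have e2 : Ex p (fun x => g x * h x) = ∑ x, √(wt p x) * g x * (√(wt p x) * h x) := by
    refine sum_congr rfl fun x _ => ?_
    calc wt p x * (g x * h x) = √(wt p x) ^ 2 * (g x * h x) := by rw [e]
      _ = _ := by ring
  rw [e2]
  exact this

lemma Ex_mg (D : Finset ι) (G : (ι → Bool) → ℝ) :
    Ex p (fun x => Ex p fun z => G (mg D x z)) = Ex p G := by
  let σ : (ι → Bool) × (ι → Bool) ≃ (ι → Bool) × (ι → Bool) :=
    Function.Involutive.toPerm (fun q => (mg D q.1 q.2, mg D q.2 q.1)) fun q => by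
      ext e <;> simp only [mg] <;> split_ifs <;> rfl
  have h1 : Ex p (fun x => Ex p fun z => G (mg D x z)) =
      ∑ q : (ι → Bool) × (ι → Bool), wt p (σ q).1 * wt p (σ q).2 * G (σ q).1 := by
    simp only [Ex, mul_sum, Fintype.sum_prod_type]
    refine sum_congr rfl fun x _ => sum_congr rfl fun z _ => ?_
    have : wt p (mg D x z) * wt p (mg D z x) = wt p x * wt p z := by
      simp only [wt, ← prod_mul_distrib, mg]
      refine prod_congr rfl fun e _ => ?_
      split_ifs <;> ring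
    change _ = wt p (mg D x z) * wt p (mg D z x) * G (mg D x z)
    rw [this, mul_assoc]
  rw [h1, Equiv.sum_comp σ fun q => wt p q.1 * wt p q.2 * G q.1, Fintype.sum_prod_type]
  refine sum_congr rfl fun x _ => ?_
  have := Ex_const (ι := ι) (p := p) 1
  simp only [Ex, mul_one] at this
  simp only [mul_right_comm _ _ (G x), ← mul_sum, this, mul_one]

lemma Ex_coord (e : ι) (v : Bool → ℝ) :
    Ex p (fun x : ι → Bool => v (x e)) = p * v true + (1 - p) * v false := by
  have := Ex_prod (p := p) fun e' b => if e' = e then v b else 1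
  simp only [prod_ite_eq', mem_univ, if_true] at this
  rw [this, prod_eq_single e] <;> simp +contextual

/-- splitting off one coordinate -/
lemma Ex_split (e : ι) (G : (ι → Bool) → ℝ) : Ex p G = Ex p fun x =>
    p * G (Function.update x e true) + (1 - p) * G (Function.update x e false) := by
  rw [← Ex_mg {e}ᶜ G]
  congr 1
  funext x
  rw [← Ex_coord e fun b => G (Function.update x e b)]
  congr 1
  funext z
  congr 1
  funext e'
  by_cases h : e' = e
  · subst h; simp [mg]
  · simp [mg, h]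

omit [Fintype ι] in
lemma chi_update {S : Finset ι} {e : ι} (h : e ∉ S) (x : ι → Bool) (b : Bool) :
    chi p S (Function.update x e b) = chi p S x :=
  prod_congr rfl fun e' he' => by rw [Function.update_of_ne (by rintro rfl; exact h he')]

omit [Fintype ι] in
lemma chi_insert {S : Finset ι} {e : ι} (h : e ∉ S) (x : ι → Bool) :
    chi p (insert e S) x = ph p (x e) * chi p S x := prod_insert h

lemma co_indep {g : (ι → Bool) → ℝ} {e : ι} (hg : ∀ x b, g (Function.update x e b) = g x)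
    {S : Finset ι} (he : e ∈ S) : co p g S = 0 := by
  rw [co, Ex_split e, ← insert_erase he]
  simp only [hg, chi_insert (notMem_erase e S), chi_update (notMem_erase e S),
    Function.update_self, ph]
  convert Ex_const (ι := ι) (p := p) 0 using 2
  simp
  ring

lemma expand (h0 : 0 < p) (h1 : p < 1) (g : (ι → Bool) → ℝ) (x : ι → Bool) :
    g x = ∑ S, co p g S * chi p S x := by
  have hs := sd_sq h0 h1
  have hs0 := (sd_pos h0 h1).ne'
  have k : ∀ z : ι → Bool, wt p z * ∑ S, chi p S z * chi p S x = if z = x then 1 else 0 := by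
    intro z
    have : ∑ S, chi p S z * chi p S x = ∏ e, (1 + ph p (z e) * ph p (x e)) := by
      rw [prod_one_add, powerset_univ]
      simp only [chi, prod_mul_distrib]
    rw [this, wt, ← prod_mul_distrib]
    have t : ∀ a b : Bool, om p a * (1 + ph p a * ph p b) = if a = b then 1 else 0 := by
      intro a b
      cases a <;> cases b <;> simp only [om, ph, if_true, Bool.false_eq_true, if_false,
        Bool.true_eq_false] <;> field_simp <;> rw [hs] <;> ring
    simp only [t]
    rw [prod_ite_zero]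
    simp [funext_iff]
  simp only [co, Ex, sum_mul]
  rw [sum_comm]
  have : ∀ z, ∑ S, wt p z * (g z * chi p S z) * chi p S x =
      g z * (wt p z * ∑ S, chi p S z * chi p S x) := fun z => by
    simp only [mul_sum]; exact sum_congr rfl fun S _ => by ring
  simp only [this, k]
  simp

lemma plancherel (h0 : 0 < p) (h1 : p < 1) (g h : (ι → Bool) → ℝ) :
    Ex p (fun x => g x * h x) = ∑ S, co p g S * co p h S := by
  have : (fun x => g x * h x) = fun x => ∑ S, co p g S * (h x * chi p S x) := by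
    funext x
    rw [expand h0 h1 g x, sum_mul]
    exact sum_congr rfl fun S _ => by ring
  rw [this, Ex_sum]
  simp only [Ex_mul]
  rfl

lemma parseval (h0 : 0 < p) (h1 : p < 1) (g : (ι → Bool) → ℝ) :
    Ex p (fun x => g x ^ 2) = ∑ S, co p g S ^ 2 := by
  simp only [sq]
  exact plancherel h0 h1 g g

lemma two_point (h0 : 0 < p) (h1 : p < 1) (a b : ℝ) :
    p * (a + ph p true * b) ^ 4 + (1 - p) * (a + ph p false * b) ^ 4 ≤
      (a ^ 2 + 2 / sd p * b ^ 2) ^ 2 := by
  have hs := sd_sq h0 h1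
  have hs0 := sd_pos h0 h1
  have hs1 := sd_le h0 h1
  obtain ⟨β, rfl⟩ : ∃ β, b = sd p * β := ⟨b / sd p, by field_simp⟩
  have e1 : ph p true * (sd p * β) = (1 - p) * β := by simp [ph]; field_simp
  have e2 : ph p false * (sd p * β) = -p * β := by simp [ph]; field_simp
  have e3 : 2 / sd p * (sd p * β) ^ 2 = 2 * sd p * β ^ 2 := by field_simp
  rw [e1, e2, e3]
  generalize sd p = s at *
  have e4 : p * (a + (1 - p) * β) ^ 4 + (1 - p) * (a + -p * β) ^ 4 =
      a ^ 4 + (p * (1 - p)) * β ^ 2 * (6 * a ^ 2 + 4 * (1 - 2 * p) * a * β +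
        (1 - 3 * (p * (1 - p))) * β ^ 2) := by ring
  rw [e4, ← hs]
  have e5 : 6 * a ^ 2 + 4 * (1 - 2 * p) * a * β + (1 - 3 * s ^ 2) * β ^ 2 ≤
      8 * a ^ 2 + 4 * β ^ 2 := by
    have : (1 - 2 * p) ^ 2 ≤ 1 := by nlinarith
    nlinarith [sq_nonneg (a - (1 - 2 * p) * β), sq_nonneg β, mul_nonneg (sq_nonneg s) (sq_nonneg β),
      mul_le_mul_of_nonneg_right this (sq_nonneg β)]
  have e6 : s ^ 2 * β ^ 2 * (6 * a ^ 2 + 4 * (1 - 2 * p) * a * β + (1 - 3 * s ^ 2) * β ^ 2) ≤
      s ^ 2 * β ^ 2 * (8 * a ^ 2 + 4 * β ^ 2) := by gcongr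
  have e7 : 8 * s ^ 2 * (a ^ 2 * β ^ 2) ≤ 4 * s * (a ^ 2 * β ^ 2) := by
    gcongr ?_ * _; nlinarith
  nlinarith

lemma hyper (h0 : 0 < p) (h1 : p < 1) (D : Finset ι) (c : Finset ι → ℝ) :
    Ex p (fun x => (∑ S ∈ D.powerset, c S * chi p S x) ^ 4) ≤
      (∑ S ∈ D.powerset, (2 / sd p) ^ S.card * c S ^ 2) ^ 2 := by
  have hC : 0 ≤ 2 / sd p := (div_pos two_pos (sd_pos h0 h1)).le
  induction D using Finset.induction_on generalizing c with
  | empty =>
    simp only [powerset_empty, sum_singleton, chi, prod_empty, mul_one, Ex_const, card_empty,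
      pow_zero, one_mul]
    exact le_of_eq (by ring)
  | insert e D he ih =>
    have hn : ∀ S ∈ D.powerset, e ∉ S := fun S hS h => he (mem_powerset.1 hS h)
    set a : (ι → Bool) → ℝ := fun x => ∑ S ∈ D.powerset, c S * chi p S x with ha
    set b : (ι → Bool) → ℝ := fun x => ∑ S ∈ D.powerset, c (insert e S) * chi p S x with hb
    have e1 : ∀ x v, ∑ S ∈ (insert e D).powerset, c S * chi p S (Function.update x e v) =
        a x + ph p v * b x := by
      intro x v
      rw [sum_powerset_insert he, ha, hb, mul_sum]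
      congr 1
      · exact sum_congr rfl fun S hS => by rw [chi_update (hn S hS)]
      · exact sum_congr rfl fun S hS => by
          rw [chi_insert (hn S hS), chi_update (hn S hS), Function.update_self]; ring
    have e2 : ∑ S ∈ (insert e D).powerset, (2 / sd p) ^ S.card * c S ^ 2 =
        ∑ S ∈ D.powerset, (2 / sd p) ^ S.card * c S ^ 2 +
          2 / sd p * ∑ S ∈ D.powerset, (2 / sd p) ^ S.card * c (insert e S) ^ 2 := by
      rw [sum_powerset_insert he, mul_sum]
      congr 1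
      exact sum_congr rfl fun S hS => by rw [card_insert_of_notMem (hn S hS)]; ring
    rw [Ex_split e, e2]
    simp only [e1]
    refine (Ex_mono h0.le h1.le fun x => two_point h0 h1 (a x) (b x)).trans ?_
    have ia := ih c
    have ib := ih fun S => c (insert e S)
    set A := ∑ S ∈ D.powerset, (2 / sd p) ^ S.card * c S ^ 2
    set B := ∑ S ∈ D.powerset, (2 / sd p) ^ S.card * c (insert e S) ^ 2
    have hA : 0 ≤ A := sum_nonneg fun _ _ => by positivity
    have hB : 0 ≤ B := sum_nonneg fun _ _ => by positivity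
    have e3 : (fun x => (a x ^ 2 + 2 / sd p * b x ^ 2) ^ 2) = fun x =>
        a x ^ 4 + (2 * (2 / sd p) * (a x ^ 2 * b x ^ 2) + (2 / sd p) ^ 2 * b x ^ 4) := by
      funext x; ring
    rw [e3, Ex_add, Ex_add, Ex_mul, Ex_mul]
    have cs := Ex_cs h0.le h1.le (fun x => a x ^ 2) fun x => b x ^ 2
    simp only [← pow_mul] at cs
    have cs2 : Ex p (fun x => a x ^ 2 * b x ^ 2) ≤ A * B := by
      refine abs_le_of_sq_le_sq' ?_ (mul_nonneg hA hB) |>.2
      refine cs.trans ?_
      rw [mul_pow]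
      exact mul_le_mul ia ib (Ex_nonneg h0.le h1.le fun x => Even.pow_nonneg (by decide) _)
        (sq_nonneg _)
    calc _ ≤ A ^ 2 + (2 * (2 / sd p) * (A * B) + (2 / sd p) ^ 2 * B ^ 2) :=
          add_le_add ia (add_le_add (mul_le_mul_of_nonneg_left cs2 (mul_nonneg two_pos.le hC))
            (mul_le_mul_of_nonneg_left ib (sq_nonneg _)))
      _ = _ := by ring

/-- normalised discrete derivative -/
noncomputable def dd (p : ℝ) (e : ι) (F : (ι → Bool) → ℝ) (x : ι → Bool) : ℝ :=
  sd p * (F (Function.update x e true) - F (Function.update x e false))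

lemma co_dd (h0 : 0 < p) (h1 : p < 1) (e : ι) (F : (ι → Bool) → ℝ) {S : Finset ι} (h : e ∉ S) :
    co p (dd p e F) S = co p F (insert e S) := by
  have hs := sd_sq h0 h1
  have hs0 := (sd_pos h0 h1).ne'
  rw [co, co, Ex_split e fun x => F x * chi p (insert e S) x]
  congr 1
  funext x
  simp only [chi_insert h, chi_update h, Function.update_self, dd, ph]
  simp only [if_true, Bool.false_eq_true, if_false]
  field_simp
  rw [hs]
  ring

lemma co_dd_mem (e : ι) (F : (ι → Bool) → ℝ) {S : Finset ι} (h : e ∈ S) :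
    co p (dd p e F) S = 0 :=
  co_indep (fun x b => by simp [dd]) h

lemma sum_co_dd (h0 : 0 < p) (h1 : p < 1) (e : ι) (F : (ι → Bool) → ℝ) (P : Finset ι → Prop)
    [DecidablePred P] :
    ∑ S ∈ univ.filter P, co p (dd p e F) S ^ 2 =
      ∑ T ∈ univ.filter fun T => e ∈ T ∧ P (T.erase e), co p F T ^ 2 := by
  rw [← sum_filter_add_sum_filter_not _ fun S => e ∈ S,
    sum_eq_zero fun S hS => by rw [co_dd_mem e F (mem_filter.1 hS).2]; simp, zero_add]
  refine sum_bij' (fun S _ => insert e S) (fun T _ => T.erase e) ?_ ?_ ?_ ?_ ?_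
  · intro S hS
    simp only [mem_filter, mem_univ, true_and] at hS ⊢
    exact ⟨mem_insert_self _ _, by rw [erase_insert hS.2]; exact hS.1⟩
  · intro T hT
    simp only [mem_filter, mem_univ, true_and] at hT ⊢
    exact ⟨hT.2, notMem_erase _ _⟩
  · intro S hS
    exact erase_insert (mem_filter.1 hS).2
  · intro T hT
    exact insert_erase (mem_filter.1 hT).2.1
  · intro S hS
    rw [co_dd h0 h1 e F (mem_filter.1 hS).2]

lemma low_le (h0 : 0 < p) (h1 : p < 1) (g : (ι → Bool) → ℝ) (D : Finset ι) (d : ℕ) {V : ℝ}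
    (hV0 : 0 ≤ V) (hV : ∑ S ∈ univ.filter (· ⊆ D), co p g S ^ 2 ≤ V ^ 2) :
    ∑ S ∈ univ.filter fun S => S ⊆ D ∧ S.card ≤ d, co p g S ^ 2 ≤
      (2 / sd p) ^ d * V * Ex p fun x => |g x| := by
  have hC : 1 ≤ 2 / sd p := by
    rw [le_div_iff₀ (sd_pos h0 h1)]; linarith [sd_le h0 h1]
  set h : (ι → Bool) → ℝ := fun x => Ex p fun z => g (mg D x z) with hh
  have c1 : ∀ S, S ⊆ D → co p h S = co p g S := by
    intro S hS
    rw [co, co, ← Ex_mg D fun x => g x * chi p S x]
    congr 1
    funext x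
    rw [hh, ← Ex_mul']
    congr 1
    funext z
    congr 1
    exact prod_congr rfl fun e he => by simp [mg, hS he]
  have c2 : ∀ S, ¬ S ⊆ D → co p h S = 0 := by
    intro S hS
    obtain ⟨e, he, he'⟩ := not_subset.1 hS
    refine co_indep (fun x b => ?_) he
    simp only [hh]
    congr 1
    funext z
    congr 1
    funext e'
    by_cases h : e' = e
    · subst h; simp [mg, he']
    · simp [mg, h]
  have n1 : Ex p (fun x => |h x|) ≤ Ex p fun x => |g x| := by
    rw [← Ex_mg D fun x => |g x|]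
    exact Ex_mono h0.le h1.le fun x => Ex_abs h0.le h1.le _
  have n2 : Ex p (fun x => h x ^ 2) ≤ V ^ 2 := by
    rw [parseval h0 h1, ← sum_filter_add_sum_filter_not _ (· ⊆ D),
      sum_eq_zero (s := univ.filter fun S => ¬ S ⊆ D)
        fun S hS => by rw [c2 S (mem_filter.1 hS).2]; simp, add_zero,
      sum_congr rfl fun S hS => by rw [c1 S (mem_filter.1 hS).2]]
    exact hV
  set A := ∑ S ∈ univ.filter fun S => S ⊆ D ∧ S.card ≤ d, co p g S ^ 2 with hA
  have hA0 : 0 ≤ A := sum_nonneg fun _ _ => sq_nonneg _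
  set c : Finset ι → ℝ := fun S => if S.card ≤ d then co p g S else 0 with hc
  set P : (ι → Bool) → ℝ := fun x => ∑ S ∈ D.powerset, c S * chi p S x with hP
  have hA' : A = ∑ S ∈ D.powerset, c S * co p g S := by
    rw [hA, ← filter_filter, sum_filter, show univ.filter (· ⊆ D) = D.powerset by ext; simp]
    exact sum_congr rfl fun S _ => by simp only [hc]; split_ifs <;> ring
  have p1 : Ex p (fun x => P x * h x) = A := by
    simp only [hP, sum_mul]
    rw [Ex_sum, hA']
    refine sum_congr rfl fun S hS => ?_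
    rw [← c1 S (mem_powerset.1 hS), co, ← Ex_mul]
    congr 1
    funext x
    ring
  have p2 : Ex p (fun x => P x ^ 4) ≤ ((2 / sd p) ^ d * A) ^ 2 := by
    refine (hyper h0 h1 D c).trans (pow_le_pow_left₀ (sum_nonneg fun _ _ => by positivity) ?_ 2)
    rw [hA', mul_sum]
    refine sum_le_sum fun S _ => ?_
    simp only [hc]
    split_ifs with hS
    · rw [← sq]
      exact mul_le_mul_of_nonneg_right (pow_le_pow_right₀ hC hS) (sq_nonneg _)
    · simp
  have q1 : Ex p (fun x => P x ^ 2 * |h x|) ≤ (2 / sd p) ^ d * A * V := by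
    refine abs_le_of_sq_le_sq' ?_ (by positivity) |>.2
    refine (Ex_cs h0.le h1.le (fun x => P x ^ 2) fun x => |h x|).trans ?_
    simp only [← pow_mul, sq_abs]
    rw [mul_pow _ V]
    exact mul_le_mul p2 n2 (Ex_nonneg h0.le h1.le fun x => sq_nonneg _) (sq_nonneg _)
  have q2 : A ^ 2 ≤ Ex p (fun x => P x ^ 2 * |h x|) * Ex p fun x => |h x| := by
    have := Ex_cs h0.le h1.le (fun x => |P x| * √|h x|) fun x => √|h x|
    simp only [mul_pow, sq_abs, Real.sq_sqrt (abs_nonneg _), mul_assoc,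
      Real.mul_self_sqrt (abs_nonneg _)] at this
    refine le_trans (pow_le_pow_left₀ hA0 ?_ 2) this
    rw [← p1]
    exact Ex_mono h0.le h1.le fun x => by rw [← abs_mul]; exact le_abs_self _
  have hE : 0 ≤ Ex p fun x => |g x| := Ex_nonneg h0.le h1.le fun x => abs_nonneg _
  rcases hA0.eq_or_lt with h | h
  · rw [← h]; positivity
  · refine le_of_mul_le_mul_left ?_ h
    calc A * A = A ^ 2 := by ring
      _ ≤ (2 / sd p) ^ d * A * V * Ex p fun x => |g x| := q2.trans
          (mul_le_mul q1 n1 (Ex_nonneg h0.le h1.le fun x => abs_nonneg _) (by positivity))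
      _ = _ := by ring

/-- the core estimate -/
lemma core (h0 : 0 < p) (h1 : p < 1) (F : (ι → Bool) → ℝ) (D : Finset ι) (d : ℕ) {V : ℝ}
    (hV0 : 0 ≤ V) (hV : ∑ T ∈ univ.filter fun T => T ⊆ D ∧ T.Nonempty, co p F T ^ 2 ≤ V ^ 2) :
    ∑ T ∈ univ.filter fun T => T ⊆ D ∧ T.Nonempty ∧ T.card ≤ d, co p F T ^ 2 ≤
      (2 / sd p) ^ d * V * ∑ e ∈ D, Ex p fun x => |dd p e F x| := by
  rw [mul_sum]
  refine le_trans ?_ (sum_le_sum fun e he => low_le h0 h1 (dd p e F) D d hV0 ?_)
  · simp only [sum_co_dd h0 h1, sum_filter]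
    rw [sum_comm]
    refine sum_le_sum fun T _ => ?_
    split_ifs with hT
    · obtain ⟨e, he⟩ := hT.2.1
      refine le_trans (le_of_eq ?_) (single_le_sum (f := fun e => if e ∈ T ∧ T.erase e ⊆ D ∧
        (T.erase e).card ≤ d then co p F T ^ 2 else 0) (fun _ _ => by positivity) (hT.1 he))
      rw [if_pos ⟨he, (erase_subset _ _).trans hT.1, card_erase_le.trans hT.2.2⟩]
    · exact sum_nonneg fun _ _ => by positivity
  · rw [sum_co_dd h0 h1]
    refine le_trans (sum_le_sum_of_subset_of_nonneg ?_ fun _ _ _ => sq_nonneg _) hV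
    intro T hT
    simp only [mem_filter, mem_univ, true_and] at hT ⊢
    refine ⟨fun x hx => ?_, e, hT.1⟩
    by_cases h : x = e
    · rwa [h]
    · exact hT.2 (mem_erase.2 ⟨h, hx⟩)

lemma Ex_perm (ρ : ι ≃ ι) (G : (ι → Bool) → ℝ) :
    Ex p (fun x => G fun e => x (ρ e)) = Ex p G := by
  rw [Ex, Ex, ← Equiv.sum_comp (Equiv.arrowCongr ρ (Equiv.refl Bool)).symm
    fun x => wt p x * G x]
  refine sum_congr rfl fun x _ => ?_
  have : (Equiv.arrowCongr ρ (Equiv.refl Bool)).symm x = fun e => x (ρ e) := by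
    funext e; simp [Equiv.arrowCongr]
  rw [this, wt, wt, Equiv.prod_comp ρ fun e => om p (x e)]

lemma co_perm (F : (ι → Bool) → ℝ) (ρ : ι ≃ ι) (hF : ∀ x, F (fun e => x (ρ e)) = F x)
    (S : Finset ι) : co p F (S.map ρ.toEmbedding) = co p F S := by
  rw [co, co, ← Ex_perm ρ fun x => F x * chi p S x]
  simp only [hF, chi, prod_map, Equiv.coe_toEmbedding]

lemma fiber_le (h0 : 0 < p) (h1 : p < 1) (f : (ι → Bool) → ℝ) (O T : Finset ι)
    (hT : Disjoint T O) : ∑ S ∈ univ.filter fun S => S \ O = T, co p f S ^ 2 ≤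
      Ex p fun y => co p (fun x => f (mg O y x)) T ^ 2 := by
  rw [parseval h0 h1]
  have key : ∀ S ∈ univ.filter fun S => S \ O = T,
      co p f S = co p (fun y => co p (fun x => f (mg O y x)) T) (S ∩ O) := by
    intro S hS
    have hS := (mem_filter.1 hS).2
    rw [co, co, ← Ex_mg O fun x => f x * chi p S x]
    congr 1
    funext y
    rw [co, ← Ex_mul']
    congr 1
    funext x
    rw [mul_assoc]
    congr 1
    rw [chi, ← prod_inter_mul_prod_diff S O, hS, mul_comm]
    congr 1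
    · exact prod_congr rfl fun e he => by simp [mg, disjoint_left.1 hT he]
    · exact prod_congr rfl fun e he => by simp [mg, (mem_inter.1 he).2]
  rw [sum_congr rfl fun S hS => by rw [key S hS],
    ← sum_image (f := fun U => co p (fun y => co p (fun x => f (mg O y x)) T) U ^ 2)
      (g := fun S => S ∩ O)]
  · exact sum_le_sum_of_subset_of_nonneg (subset_univ _) fun _ _ _ => sq_nonneg _
  · intro S hS S' hS' h
    have a1 := (mem_filter.1 hS).2
    have a2 := (mem_filter.1 hS').2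
    simp only at h
    rw [← sdiff_union_inter S O, ← sdiff_union_inter S' O, a1, a2, h]

end Vale.Agent.P063
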