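import Vale.Agent.P063.Defs
import Vale.Agent.P063.Cube

open Finset

namespace Vale.Agent.P063

variable {n r : ℕ} {p : ℝ}

lemma mem_act (u v w : Fin n) (e : Edge n r) :
    w ∈ (act (Equiv.swap u v) e).1 ↔ Equiv.swap u v w ∈ e.1 := by
  simp [act, mem_map_equiv]

def sw (u v : Fin n) : Edge n r ≃ Edge n r :=
  Function.Involutive.toPerm (act (Equiv.swap u v)) fun e => by
    ext w; rw [mem_act, mem_act, Equiv.swap_apply_self]

lemma mem_sw (u v w : Fin n) (e : Edge n r) :
    w ∈ (sw u v e).1 ↔ Equiv.swap u v w ∈ e.1 := mem_act u v w e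

lemma sw_sw (u v : Fin n) (e : Edge n r) : sw u v (sw u v e) = e := by
  ext w; rw [mem_sw, mem_sw, Equiv.swap_apply_self]

def supp (S : Finset (Edge n r)) : Finset (Fin n) := S.biUnion fun e => e.1

def deg (S : Finset (Edge n r)) (u : Fin n) : ℕ := (S.filter fun e => u ∈ e.1).card

def IsTop (S : Finset (Edge n r)) (i : Fin n) : Prop := i ∈ supp S ∧ ∀ u ∈ supp S, u ≤ i

instance (S : Finset (Edge n r)) (i : Fin n) : Decidable (IsTop S i) := by
  unfold IsTop; infer_instance

lemma mem_supp {S : Finset (Edge n r)} {u : Fin n} : u ∈ supp S ↔ ∃ e ∈ S, u ∈ e.1 := by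
  simp only [supp, mem_biUnion]

lemma sum_deg (S : Finset (Edge n r)) : ∑ u ∈ supp S, deg S u = r * S.card := by
  simp only [deg, card_filter]
  rw [sum_comm, mul_comm, ← smul_eq_mul, ← sum_const]
  refine sum_congr rfl fun e he => ?_
  rw [← card_filter]
  refine Eq.trans ?_ e.2
  congr 1
  ext u
  simp only [mem_filter, and_iff_right_iff_imp]
  exact fun h => mem_supp.2 ⟨e, he, h⟩

lemma card_le_pow (S : Finset (Edge n r)) : S.card ≤ (supp S).card ^ r := by
  refine le_trans ?_ (Nat.choose_le_pow _ _)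
  rw [← card_powersetCard]
  refine card_le_card_of_injOn (fun e => e.1) (fun e he => ?_) fun e _ e' _ h => Subtype.ext h
  exact mem_coe.2 (mem_powersetCard.2 ⟨fun u hu => mem_supp.2 ⟨e, he, hu⟩, e.2⟩)

lemma mem_supp_map (u v w : Fin n) (S : Finset (Edge n r)) :
    w ∈ supp (S.map (sw u v).toEmbedding) ↔ Equiv.swap u v w ∈ supp S := by
  simp only [mem_supp, mem_map, Equiv.coe_toEmbedding]
  constructor
  · rintro ⟨_, ⟨e, he, rfl⟩, h⟩
    exact ⟨e, he, (mem_sw _ _ _ _).1 h⟩
  · rintro ⟨e, he, h⟩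
    exact ⟨_, ⟨e, he, rfl⟩, (mem_sw _ _ _ _).2 h⟩

lemma supp_map {u v : Fin n} {S : Finset (Edge n r)} (hu : u ∈ supp S) (hv : v ∈ supp S) :
    supp (S.map (sw u v).toEmbedding) = supp S := by
  ext w
  rw [mem_supp_map, Equiv.swap_apply_def]
  split_ifs with h1 h2
  · simp [h1, hu, hv]
  · simp [h2, hu, hv]
  · rfl

lemma deg_map (u v w : Fin n) (S : Finset (Edge n r)) :
    deg (S.map (sw u v).toEmbedding) w = deg S (Equiv.swap u v w) := by
  rw [deg, filter_map, card_map, deg]
  congr 1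
  ext e
  simp [mem_sw]

lemma map_sw_sw (u v : Fin n) (S : Finset (Edge n r)) :
    (S.map (sw u v).toEmbedding).map (sw u v).toEmbedding = S := by
  ext e
  simp only [mem_map, Equiv.coe_toEmbedding]
  constructor
  · rintro ⟨_, ⟨e, he, rfl⟩, rfl⟩
    rwa [sw_sw]
  · exact fun h => ⟨_, ⟨e, h, rfl⟩, sw_sw _ _ _⟩

lemma supp_nonempty (hr : 1 ≤ r) {S : Finset (Edge n r)} (h : S.Nonempty) : (supp S).Nonempty := by
  obtain ⟨e, he⟩ := h
  obtain ⟨u, hu⟩ : e.1.Nonempty := card_pos.1 (by rw [e.2]; exact hr)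
  exact ⟨u, mem_supp.2 ⟨e, he, hu⟩⟩

lemma sum_top (hr : 1 ≤ r) (g : Finset (Edge n r) → ℝ) :
    ∑ S ∈ univ.filter Finset.Nonempty, g S = ∑ i, ∑ S ∈ univ.filter (IsTop · i), g S := by
  simp only [sum_filter]
  rw [sum_comm]
  refine sum_congr rfl fun S _ => ?_
  split_ifs with h
  · have hs := supp_nonempty hr h
    have ht : IsTop S ((supp S).max' hs) := ⟨max'_mem _ _, fun u hu => le_max' _ _ hu⟩
    rw [sum_eq_single ((supp S).max' hs), if_pos ht]
    · intro j _ hj
      exact if_neg fun h' => hj (le_antisymm (ht.2 _ h'.1) (h'.2 _ ht.1))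
    · simp
  · rw [not_nonempty_iff_eq_empty.1 h]
    simp [IsTop, supp]

lemma sym_top (a : Finset (Edge n r) → ℝ) (ha : ∀ u v S, a (S.map (sw u v).toEmbedding) = a S)
    (i : Fin n) : ∑ S ∈ univ.filter (IsTop · i), a S * deg S i =
      ∑ S ∈ univ.filter (IsTop · i), a S * (r * S.card / (supp S).card) := by
  have key : ∀ u, ∑ S ∈ univ.filter fun S => IsTop S i ∧ u ∈ supp S,
      a S * deg S i / (supp S).card =
      ∑ S ∈ univ.filter fun S => IsTop S i ∧ u ∈ supp S, a S * deg S u / (supp S).card := by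
    intro u
    have m : ∀ S ∈ univ.filter fun S : Finset (Edge n r) => IsTop S i ∧ u ∈ supp S,
        S.map (sw u i).toEmbedding ∈ univ.filter fun S => IsTop S i ∧ u ∈ supp S := by
      intro S hS
      have hS := (mem_filter.1 hS).2
      refine mem_filter.2 ⟨mem_univ _, ?_⟩
      unfold IsTop at hS ⊢
      rwa [supp_map hS.2 hS.1.1]
    refine sum_nbij' (fun S => S.map (sw u i).toEmbedding) (fun S => S.map (sw u i).toEmbedding)
      m m (fun S _ => map_sw_sw _ _ _) (fun S _ => map_sw_sw _ _ _) fun S hS => ?_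
    have hS := (mem_filter.1 hS).2
    rw [ha, deg_map, supp_map hS.2 hS.1.1, Equiv.swap_apply_left]
  have t : ∀ G : Finset (Edge n r) → Fin n → ℝ,
      ∑ u, ∑ S ∈ univ.filter fun S => IsTop S i ∧ u ∈ supp S, G S u =
        ∑ S ∈ univ.filter (IsTop · i), ∑ u ∈ supp S, G S u := by
    intro G
    simp only [← filter_filter, sum_filter (s := univ.filter (IsTop · i))]
    rw [sum_comm]
    exact sum_congr rfl fun S _ => by rw [← sum_filter]; simp
  have := sum_congr (s₁ := univ) rfl fun u _ => key u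
  rw [t fun S _ => a S * deg S i / (supp S).card, t fun S u => a S * deg S u / (supp S).card]
    at this
  convert this using 2 with S hS S hS
  · have : ((supp S).card : ℝ) ≠ 0 := by
      exact_mod_cast (card_pos.2 ⟨i, (mem_filter.1 hS).2.1⟩).ne'
    rw [sum_const, nsmul_eq_mul]
    field_simp
  · rw [← sum_div, ← mul_sum, ← Nat.cast_sum, sum_deg]
    push_cast
    ring

lemma high_le (hr : 1 ≤ r) (a : Finset (Edge n r) → ℝ) (h0 : ∀ S, 0 ≤ a S)
    (ha : ∀ u v S, a (S.map (sw u v).toEmbedding) = a S) {t : ℝ} (ht : 0 < t) :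
    ∑ i, ∑ S ∈ univ.filter (IsTop · i), a S * deg S i ≤
      r / t * ∑ S, S.card * a S + r * t ^ (r - 1) * ∑ S ∈ univ.filter Finset.Nonempty, a S := by
  simp only [sym_top a ha]
  rw [← sum_top hr]
  have : ∑ S, S.card * a S = ∑ S ∈ univ.filter Finset.Nonempty, S.card * a S := by
    rw [sum_filter]
    refine sum_congr rfl fun S _ => ?_
    split_ifs with h
    · rfl
    · simp [not_nonempty_iff_eq_empty.1 h]
  rw [this, mul_sum, mul_sum, ← sum_add_distrib]
  refine sum_le_sum fun S hS => ?_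
  have hv : (0 : ℝ) < (supp S).card := by
    exact_mod_cast card_pos.2 (supp_nonempty hr (mem_filter.1 hS).2)
  have hc : (S.card : ℝ) ≤ (supp S).card ^ r := by exact_mod_cast card_le_pow S
  have := h0 S
  have k : (S.card : ℝ) / (supp S).card ≤ S.card / t + t ^ (r - 1) := by
    rcases le_total t (supp S).card with h | h
    · refine le_add_of_le_of_nonneg ?_ (by positivity)
      gcongr
    · refine le_add_of_nonneg_of_le (by positivity) ?_
      rw [div_le_iff₀ hv]
      refine hc.trans ?_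
      obtain ⟨k, rfl⟩ := Nat.exists_eq_add_of_le' hr
      rw [pow_succ, Nat.add_sub_cancel]
      gcongr
  calc a S * (r * S.card / (supp S).card) = r * a S * (S.card / (supp S).card) := by ring
    _ ≤ r * a S * (S.card / t + t ^ (r - 1)) := by gcongr
    _ = _ := by ring

end Vale.Agent.P063
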