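import Mathlib

namespace Vale.Agent.P063

/-- The `r`-element subsets of the vertex set `Fin n`. -/
abbrev Edge (n r : ℕ) : Type := {s : Finset (Fin n) // s.card = r}

/-- The image of an edge under a permutation of the vertices. -/
def act {n r : ℕ} (σ : Equiv.Perm (Fin n)) (e : Edge n r) : Edge n r :=
  ⟨e.1.map σ.toEmbedding, (Finset.card_map _).trans e.2⟩

/-- Invariance under all permutations of the vertices. -/
def Invariant {n r : ℕ} (P : Set (Edge n r → Bool)) : Prop :=
  ∀ (σ : Equiv.Perm (Fin n)) (x : Edge n r → Bool), x ∈ P → (fun e => x (act σ e)) ∈ P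

/-- Adding edges preserves membership. -/
def Increasing {n r : ℕ} (P : Set (Edge n r → Bool)) : Prop :=
  ∀ x y : Edge n r → Bool, x ∈ P → (∀ e, x e = true → y e = true) → y ∈ P

open Classical in
/-- Probability that the random hypergraph with edge density `p` lies in `P`. -/
noncomputable def mu {n r : ℕ} (p : ℝ) (P : Set (Edge n r → Bool)) : ℝ :=
  ∑ x : Edge n r → Bool, if x ∈ P then ∏ e : Edge n r, (if x e = true then p else 1 - p) else 0

/-- `p_a(P)`. -/
noncomputable def thr {n r : ℕ} (a : ℝ) (P : Set (Edge n r → Bool)) : ℝ :=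
  sInf {p : ℝ | p ∈ Set.Icc (0 : ℝ) 1 ∧ a ≤ mu p P}

/-- The threshold width `w_ε(P)`. -/
noncomputable def width {n r : ℕ} (ε : ℝ) (P : Set (Edge n r → Bool)) : ℝ :=
  thr (1 - ε) P - thr ε P

end Vale.Agent.P063
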