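import Vale.Agent.P063.Main

open Finset

namespace Vale.Agent.P063

variable {n r : ℕ} {p : ℝ}

lemma ode {g g' : ℝ → ℝ} {ε c : ℝ} (hε0 : 0 < ε) (hε1 : ε < 1 / 2) (hc : 0 < c)
    (hcont : Continuous g) (hd : ∀ p ∈ Set.Ioo (0 : ℝ) 1, HasDerivAt g (g' p) p)
    (hlow : ∀ p ∈ Set.Ioo (0 : ℝ) 1, c * (g p * (1 - g p)) ≤ g' p)
    (hb : ∀ p ∈ Set.Icc (0 : ℝ) 1, 0 ≤ g p ∧ g p ≤ 1) (h1 : g 1 = 1) :
    sInf {p : ℝ | p ∈ Set.Icc (0 : ℝ) 1 ∧ 1 - ε ≤ g p} -
      sInf {p : ℝ | p ∈ Set.Icc (0 : ℝ) 1 ∧ ε ≤ g p} ≤ 2 / (c * ε) := by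
  have mono : MonotoneOn g (Set.Icc 0 1) := by
    refine monotoneOn_of_deriv_nonneg (convex_Icc 0 1) hcont.continuousOn ?_ ?_ <;>
      rw [interior_Icc] <;> intro p hp
    · exact (hd p hp).differentiableAt.differentiableWithinAt
    · rw [(hd p hp).deriv]
      obtain ⟨a, b⟩ := hb p (Set.Ioo_subset_Icc_self hp)
      exact le_trans (mul_nonneg hc.le (mul_nonneg a (sub_nonneg.2 b))) (hlow p hp)
  set A := {p : ℝ | p ∈ Set.Icc (0 : ℝ) 1 ∧ ε ≤ g p}
  set B := {p : ℝ | p ∈ Set.Icc (0 : ℝ) 1 ∧ 1 - ε ≤ g p}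
  have A1 : (1 : ℝ) ∈ A := ⟨by simp, by linarith⟩
  have B1 : (1 : ℝ) ∈ B := ⟨by simp, by linarith⟩
  have Bb : BddBelow B := ⟨0, fun p hp => hp.1.1⟩
  have a0 : 0 ≤ sInf A := le_csInf ⟨1, A1⟩ fun p hp => hp.1.1
  have b1 : sInf B ≤ 1 := csInf_le Bb B1
  rcases le_or_gt (sInf B) (sInf A) with h | h
  · exact le_trans (sub_nonpos.2 h) (by positivity)
  obtain ⟨ξ, hξ, e⟩ := exists_hasDerivAt_eq_slope g g' h hcont.continuousOn fun p hp =>
    hd p ⟨a0.trans_lt hp.1, hp.2.trans_le b1⟩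
  have ξ1 : ξ ∈ Set.Ioo (0 : ℝ) 1 := ⟨a0.trans_lt hξ.1, hξ.2.trans_le b1⟩
  have ξ2 := Set.Ioo_subset_Icc_self ξ1
  have g1 : ε ≤ g ξ := by
    obtain ⟨q, hq, h'⟩ := exists_lt_of_csInf_lt ⟨1, A1⟩ hξ.1
    exact hq.2.trans (mono hq.1 ξ2 h'.le)
  have g2 : g ξ ≤ 1 - ε := by
    by_contra h'
    exact absurd (csInf_le Bb ⟨ξ2, (not_le.1 h').le⟩) (not_le.2 hξ.2)
  have g3 : ε / 2 ≤ g ξ * (1 - g ξ) := by nlinarith
  have g4 := hlow ξ ξ1
  have g5 := (hb _ ⟨a0, h.le.trans b1⟩).1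
  have g6 := (hb _ ⟨a0.trans h.le, b1⟩).2
  have h' := sub_pos.2 h
  rw [e, le_div_iff₀ h'] at g4
  rw [le_div_iff₀ (by positivity)]
  have : c * (ε / 2) * (sInf B - sInf A) ≤ c * (g ξ * (1 - g ξ)) * (sInf B - sInf A) := by gcongr
  linarith

theorem width_le (r : ℕ) (hr : 2 ≤ r) (ε : ℝ) (hε0 : 0 < ε) (hε1 : ε < 1 / 2) :
    ∃ C : ℝ, ∀ n : ℕ, r ≤ n → ∀ P : Set (Edge n r → Bool),
      Invariant P → Increasing P → P.Nonempty → P ≠ Set.univ →
        width ε P ≤ C * Real.log n ^ (-((r : ℝ) / ((r : ℝ) - 1))) := by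
  classical
  refine ⟨4 * (r * (256 * r + 64)) / ε, fun n hn P hinv hinc hne _ => ?_⟩
  set f : (Edge n r → Bool) → ℝ := fun x => if x ∈ P then 1 else 0 with hf
  have hmu : ∀ q, mu q P = Ex q f := fun q => by
    refine sum_congr rfl fun x _ => ?_
    simp only [hf, wt, om]
    split_ifs <;> simp
  have hb : ∀ x, f x = 0 ∨ f x = 1 := fun x => by simp only [hf]; split_ifs <;> simp
  have hs : ∀ u v x, f (fun e => x (sw u v e)) = f x := by
    intro u v x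
    have : (fun e => x (sw u v e)) ∈ P ↔ x ∈ P := by
      refine ⟨fun h => ?_, hinv _ x⟩
      have := hinv (Equiv.swap u v) _ h
      convert this using 2 with e
      exact congrArg x (sw_sw u v e).symm
    simp only [hf, this]
  have hm : ∀ x e, f (Function.update x e false) ≤ f (Function.update x e true) := by
    intro x e
    simp only [hf]
    split_ifs with a b
    · rfl
    · refine absurd (hinc _ _ a fun e' h => ?_) b
      by_cases h' : e' = e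
      · subst h'; simp
      · simpa [h'] using h
    · norm_num
    · rfl
  have hr' : (2 : ℝ) ≤ r := by exact_mod_cast hr
  have l0 : 0 < Real.log n := Real.log_pos (by exact_mod_cast (by omega : 1 < n))
  have L0 : 0 < Real.log n ^ ((r : ℝ) / (r - 1)) := Real.rpow_pos_of_pos l0 _
  have K0 : (0 : ℝ) < 2 * (r * (256 * r + 64)) := by positivity
  have := ode (g := fun q => Ex q f) (g' := fun q => (∑ e, co q f {e}) / sd q)
    (c := Real.log n ^ ((r : ℝ) / (r - 1)) / (2 * (r * (256 * r + 64)))) hε0 hε1 (div_pos L0 K0)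
    (continuous_Ex f) (fun p hp => hasDeriv_Ex hp.1 hp.2 f) ?_ ?_ ?_
  · simp only [width, thr, hmu]
    refine this.trans (le_of_eq ?_)
    rw [Real.rpow_neg l0.le]
    field_simp
    norm_num
  · rintro p ⟨h0, h1⟩
    have s0 := sd_pos h0 h1
    rw [div_mul_eq_mul_div, div_le_iff₀ K0, mul_comm _ (2 * _)]
    refine num hr (hr.trans hn) s0 (sd_le h0 h1) (div_nonneg (sum_nonneg fun e _ => ?_) s0.le)
      fun d t ht => ?_
    · rw [← Ex_abs_dd h0 h1 hb hm]; exact Ex_nonneg h0.le h1.le fun x => abs_nonneg _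
    · rw [mul_div_cancel₀ _ s0.ne']
      exact main_ineq (by omega) (by omega) h0 h1 f hs hb hm d ht
  · rintro p ⟨h0, h1⟩
    refine ⟨Ex_nonneg h0 h1 fun x => by rcases hb x with h | h <;> rw [h] <;> norm_num, ?_⟩
    rw [← Ex_const (ι := Edge n r) (p := p) 1]
    exact Ex_mono h0 h1 fun x => by rcases hb x with h | h <;> rw [h] <;> norm_num
  · obtain ⟨x, hx⟩ := hne
    have ht : (fun _ => true) ∈ P := hinc x _ hx fun _ _ => rfl
    simp only [Ex]
    rw [sum_eq_single fun _ => true]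
    · simp [wt, om, hf, ht]
    · intro y _ hy
      obtain ⟨e, he⟩ := Function.ne_iff.1 hy
      rw [wt, prod_eq_zero (mem_univ e) (by simp [om, he]), zero_mul]
    · simp

end Vale.Agent.P063
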