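import Vale.Agent.P063.Comb

open Finset

namespace Vale.Agent.P063

variable {n r : ℕ} {p : ℝ}

def OO (r : ℕ) (i : Fin n) : Finset (Edge n r) := univ.filter fun e => ∀ w ∈ e.1, w < i

def St (r : ℕ) (i : Fin n) : Finset (Edge n r) :=
  univ.filter fun e => i ∈ e.1 ∧ ∀ w ∈ e.1, w ≤ i

lemma sw_fix {i u : Fin n} (hu : i ≤ u) {e : Edge n r} (he : e ∈ OO r i) : sw i u e = e := by
  have he := (mem_filter.1 he).2
  ext w
  rw [mem_sw, Equiv.swap_apply_def]
  have h1 : i ∉ e.1 := fun h => lt_irrefl _ (he _ h)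
  have h2 : u ∉ e.1 := fun h => absurd (he _ h) (not_lt.2 hu)
  split_ifs with a b
  · simp [a, h1, h2]
  · simp [b, h1, h2]
  · rfl

lemma mg_sw {i u : Fin n} (hu : i ≤ u) (y x : Edge n r → Bool) :
    mg (OO r i) y (fun e => x (sw i u e)) = fun e => mg (OO r i) y x (sw i u e) := by
  funext e
  by_cases h : e ∈ OO r i
  · simp only [mg, sw_fix hu h, h, if_true]
  · have : sw i u e ∉ OO r i := fun h' => h (by rw [← sw_sw i u e, sw_fix hu h']; exact h')
    simp only [mg, h, this, if_false]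

lemma star_le (h0 : 0 < p) (h1 : p < 1) (F : (Edge n r → Bool) → ℝ) (i : Fin n)
    (hF : ∀ u, i ≤ u → ∀ x, F (fun e => x (sw i u e)) = F x) (hb : ∀ x, F x ^ 2 ≤ 1) :
    ∑ T ∈ univ.filter fun T => T ⊆ St r i ∧ T.Nonempty, co p F T ^ 2 ≤
      (1 / √((n - i : ℕ) : ℝ)) ^ 2 := by
  have hn : (0 : ℝ) < (n - i : ℕ) := by exact_mod_cast Nat.sub_pos_of_lt i.2
  rw [div_pow, one_pow, Real.sq_sqrt hn.le, le_div_iff₀ hn]
  set 𝒯 := univ.filter fun T : Finset (Edge n r) => T ⊆ St r i ∧ T.Nonempty with h𝒯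
  have e1 : (∑ T ∈ 𝒯, co p F T ^ 2) * ((n - i : ℕ) : ℝ) =
      ∑ q ∈ Ici i ×ˢ 𝒯, co p F (q.2.map (sw i q.1).toEmbedding) ^ 2 := by
    rw [sum_product, sum_congr rfl fun u hu => sum_congr rfl fun T _ => by
      rw [co_perm F (sw i u) (hF u (mem_Ici.1 hu))]]
    simp [mul_comm]
  rw [e1, ← sum_image (f := fun T => co p F T ^ 2)
    (g := fun q : Fin n × Finset (Edge n r) => q.2.map (sw i q.1).toEmbedding)]
  · refine (sum_le_sum_of_subset_of_nonneg (subset_univ _) fun _ _ _ => sq_nonneg _).trans ?_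
    rw [← parseval h0 h1, ← Ex_const (ι := Edge n r) (p := p) 1]
    exact Ex_mono h0.le h1.le hb
  · rintro ⟨u, T⟩ hq ⟨u', T'⟩ hq' h
    obtain ⟨hu, hT⟩ := mem_product.1 hq
    obtain ⟨hu', hT'⟩ := mem_product.1 hq'
    have hu := mem_Ici.1 hu
    have hu' := mem_Ici.1 hu'
    obtain ⟨hT, e, he⟩ := (mem_filter.1 hT).2
    have hT' := (mem_filter.1 hT').2.1
    simp only at h hu hu' hT he hT'
    have : u = u' := by
      have m : sw i u e ∈ T'.map (sw i u').toEmbedding := h ▸ mem_map_of_mem _ he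
      obtain ⟨e', he', h'⟩ := mem_map.1 m
      have a1 : u ∈ (sw i u e).1 := by
        rw [mem_sw, Equiv.swap_apply_right]; exact (mem_filter.1 (hT he)).2.1
      rw [← h', Equiv.coe_toEmbedding, mem_sw] at a1
      have a2 := (mem_filter.1 (hT' he')).2.2 _ a1
      rw [Equiv.swap_apply_def] at a2
      split_ifs at a2 with b c
      · rw [b]; exact le_antisymm hu' a2
      · exact c
      · exact absurd (le_antisymm a2 hu) b
    subst this
    rw [map_injective _ h]

lemma low_i (h0 : 0 < p) (h1 : p < 1) (f : (Edge n r → Bool) → ℝ)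
    (hs : ∀ u v x, f (fun e => x (sw u v e)) = f x) (hb : ∀ x, f x ^ 2 ≤ 1) (d : ℕ) (i : Fin n) :
    ∑ S ∈ univ.filter fun S => IsTop S i ∧ deg S i ≤ d, co p f S ^ 2 ≤
      (2 / sd p) ^ d * (1 / √((n - i : ℕ) : ℝ)) *
        ∑ e ∈ univ.filter fun e : Edge n r => i ∈ e.1, Ex p fun x => |dd p e f x| := by
  have hC : 0 ≤ 2 / sd p := (div_pos two_pos (sd_pos h0 h1)).le
  set 𝒯 := univ.filter fun T : Finset (Edge n r) => T ⊆ St r i ∧ T.Nonempty ∧ T.card ≤ d with h𝒯
  have dj : ∀ e ∈ St r i, e ∉ OO r i := fun e he h =>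
    lt_irrefl _ ((mem_filter.1 h).2 _ (mem_filter.1 he).2.1)
  have mp : ∀ S ∈ univ.filter fun S : Finset (Edge n r) => IsTop S i ∧ deg S i ≤ d,
      S \ OO r i ∈ 𝒯 := by
    intro S hS
    obtain ⟨⟨t1, t2⟩, hd⟩ := (mem_filter.1 hS).2
    have : S \ OO r i = S.filter fun e => i ∈ e.1 := by
      ext e
      simp only [mem_sdiff, mem_filter, OO, mem_univ, true_and, and_congr_right_iff]
      intro he
      constructor
      · intro h
        push Not at h
        obtain ⟨w, hw, h⟩ := h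
        rwa [← le_antisymm (t2 w (mem_supp.2 ⟨e, he, hw⟩)) h]
      · exact fun h h' => lt_irrefl _ (h' _ h)
    rw [this]
    refine mem_filter.2 ⟨mem_univ _, fun e he => ?_, ?_, hd⟩
    · obtain ⟨a, b⟩ := mem_filter.1 he
      exact mem_filter.2 ⟨mem_univ _, b, fun w hw => t2 w (mem_supp.2 ⟨e, a, hw⟩)⟩
    · obtain ⟨e, a, b⟩ := mem_supp.1 t1
      exact ⟨e, mem_filter.2 ⟨a, b⟩⟩
  rw [← sum_fiberwise_of_maps_to mp]
  calc _ ≤ ∑ T ∈ 𝒯, Ex p fun y => co p (fun x => f (mg (OO r i) y x)) T ^ 2 := by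
        refine sum_le_sum fun T hT => le_trans ?_ (fiber_le h0 h1 f (OO r i) T
          (disjoint_left.2 fun e he => dj e ((mem_filter.1 hT).2.1 he)))
        refine sum_le_sum_of_subset_of_nonneg (fun S hS => ?_) fun _ _ _ => sq_nonneg _
        exact mem_filter.2 ⟨mem_univ _, (mem_filter.1 hS).2⟩
    _ ≤ Ex p fun y => (2 / sd p) ^ d * (1 / √((n - i : ℕ) : ℝ)) *
          ∑ e ∈ St r i, Ex p fun x => |dd p e (fun x => f (mg (OO r i) y x)) x| := by
        rw [← Ex_sum]
        refine Ex_mono h0.le h1.le fun y => core h0 h1 _ _ d (by positivity) ?_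
        refine star_le h0 h1 _ i (fun u hu x => ?_) fun x => hb _
        rw [mg_sw hu, hs]
    _ = (2 / sd p) ^ d * (1 / √((n - i : ℕ) : ℝ)) *
          ∑ e ∈ St r i, Ex p fun x => |dd p e f x| := by
        rw [Ex_mul, Ex_sum]
        congr 1
        refine sum_congr rfl fun e he => ?_
        rw [← Ex_mg (OO r i) fun x => |dd p e f x|]
        congr 1
        funext y
        congr 1
        funext x
        have : ∀ b, mg (OO r i) y (Function.update x e b) =
            Function.update (mg (OO r i) y x) e b := by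
          intro b
          funext e'
          by_cases h : e' = e
          · subst h; simp [mg, dj _ he]
          · simp [mg, h]
        simp only [dd, this]
    _ ≤ _ := by
        refine mul_le_mul_of_nonneg_left (sum_le_sum_of_subset_of_nonneg (fun e he => ?_)
          fun _ _ _ => Ex_nonneg h0.le h1.le fun x => abs_nonneg _) (by positivity)
        exact mem_filter.2 ⟨mem_univ _, (mem_filter.1 he).2.1⟩

lemma sum_inv_sqrt (n : ℕ) : ∑ i : Fin n, 1 / √((n - i : ℕ) : ℝ) ≤ 2 * √n := by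
  rw [Fin.sum_univ_eq_sum_range fun i => 1 / √((n - i : ℕ) : ℝ), ← sum_range_reflect,
    sum_congr rfl (g := fun i : ℕ => 1 / √((i + 1 : ℕ) : ℝ)) fun i hi => by
      have := mem_range.1 hi
      rw [show n - (n - 1 - i) = i + 1 by omega]]
  induction n with
  | zero => simp
  | succ n ih =>
    rw [sum_range_succ]
    have a : (0 : ℝ) < √((n + 1 : ℕ) : ℝ) := Real.sqrt_pos.2 (by positivity)
    have b := Real.sq_sqrt (x := ((n + 1 : ℕ) : ℝ)) (by positivity)
    have c := Real.sq_sqrt (x := (n : ℝ)) (by positivity)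
    have : 1 / √((n + 1 : ℕ) : ℝ) ≤ 2 * √((n + 1 : ℕ) : ℝ) - 2 * √n := by
      rw [div_le_iff₀ a]
      generalize √((n + 1 : ℕ) : ℝ) = A at *
      generalize √(n : ℝ) = B at *
      push_cast at b
      nlinarith [sq_nonneg (A - B)]
    linarith

lemma star_sum (b : Edge n r → ℝ) (hb : ∀ u v e, b (sw u v e) = b e) (i : Fin n) :
    n * ∑ e ∈ univ.filter fun e : Edge n r => i ∈ e.1, b e = r * ∑ e, b e := by
  have k : ∀ j : Fin n, ∑ e ∈ univ.filter fun e : Edge n r => i ∈ e.1, b e =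
      ∑ e ∈ univ.filter fun e : Edge n r => j ∈ e.1, b e := by
    intro j
    simp only [sum_filter]
    rw [← Equiv.sum_comp (sw i j)]
    simp only [mem_sw, Equiv.swap_apply_left, hb]
  calc _ = ∑ j : Fin n, ∑ e ∈ univ.filter fun e : Edge n r => j ∈ e.1, b e := by
        rw [← sum_congr rfl fun j _ => k j]; simp
    _ = _ := by
        simp only [sum_filter]
        rw [sum_comm, mul_sum]
        refine sum_congr rfl fun e _ => ?_
        rw [← sum_filter]
        simp [e.2]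

end Vale.Agent.P063
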