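import Vale.Agent.P063.Low

open Finset

namespace Vale.Agent.P063

variable {n r : ℕ} {p : ℝ}

section
variable {ι : Type} [Fintype ι] [DecidableEq ι]

lemma co_empty (f : (ι → Bool) → ℝ) : co p f ∅ = Ex p f := by simp [co, chi]

lemma Ex_dd (h0 : 0 < p) (h1 : p < 1) (f : (ι → Bool) → ℝ) (e : ι) :
    Ex p (dd p e f) = co p f {e} := by
  rw [← co_empty, co_dd h0 h1 e f (notMem_empty e)]
  rfl

lemma dd_cases {f : (ι → Bool) → ℝ} (hb : ∀ x, f x = 0 ∨ f x = 1)
    (hm : ∀ x e, f (Function.update x e false) ≤ f (Function.update x e true)) (e : ι)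
    (x : ι → Bool) : dd p e f x = 0 ∨ dd p e f x = sd p := by
  have := hm x e
  unfold dd
  rcases hb (Function.update x e false) with a | a <;>
    rcases hb (Function.update x e true) with b | b <;> simp only [a, b] at this ⊢ <;> norm_num
  norm_num at this

lemma Ex_abs_dd (h0 : 0 < p) (h1 : p < 1) {f : (ι → Bool) → ℝ} (hb : ∀ x, f x = 0 ∨ f x = 1)
    (hm : ∀ x e, f (Function.update x e false) ≤ f (Function.update x e true)) (e : ι) :
    Ex p (fun x => |dd p e f x|) = co p f {e} := by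
  rw [← Ex_dd h0 h1]
  congr 1
  funext x
  rcases dd_cases (p := p) hb hm e x with h | h <;> rw [h]
  · simp
  · exact abs_of_pos (sd_pos h0 h1)

lemma sum_card_co (h0 : 0 < p) (h1 : p < 1) {f : (ι → Bool) → ℝ} (hb : ∀ x, f x = 0 ∨ f x = 1)
    (hm : ∀ x e, f (Function.update x e false) ≤ f (Function.update x e true)) :
    ∑ S : Finset ι, S.card * co p f S ^ 2 = sd p * ∑ e, co p f {e} := by
  have k : ∀ e, sd p * co p f {e} = ∑ S, if e ∈ S then co p f S ^ 2 else 0 := by
    intro e
    have := sum_co_dd h0 h1 e f fun _ => True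
    simp only [filter_true, and_true] at this
    rw [← sum_filter, ← this, ← parseval h0 h1, ← Ex_dd h0 h1, ← Ex_mul]
    congr 1
    funext x
    rcases dd_cases (p := p) hb hm e x with h | h <;> rw [h] <;> ring
  rw [mul_sum]
  simp only [k]
  rw [sum_comm]
  refine sum_congr rfl fun S _ => ?_
  rw [← sum_filter]
  simp

lemma var_eq (h0 : 0 < p) (h1 : p < 1) {f : (ι → Bool) → ℝ} (hb : ∀ x, f x = 0 ∨ f x = 1) :
    ∑ S ∈ univ.filter Finset.Nonempty, co p f S ^ 2 = Ex p f * (1 - Ex p f) := by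
  have := parseval h0 h1 f
  rw [← sum_filter_add_sum_filter_not univ Finset.Nonempty,
    show (univ.filter fun S : Finset ι => ¬ S.Nonempty) = {∅} by ext; simp, sum_singleton,
    co_empty, show (fun x => f x ^ 2) = f by
      funext x; rcases hb x with h | h <;> rw [h] <;> norm_num] at this
  linarith

lemma hasDeriv_Ex (h0 : 0 < p) (h1 : p < 1) (f : (ι → Bool) → ℝ) :
    HasDerivAt (fun q => Ex q f) ((∑ e, co p f {e}) / sd p) p := by
  have hs := sd_sq h0 h1
  have hs0 := (sd_pos h0 h1).ne'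
  have d1 : ∀ b, HasDerivAt (fun q => om q b) (om p b * ph p b / sd p) p := by
    intro b
    cases b
    · simp only [om, ph, Bool.false_eq_true, if_false]
      refine ((hasDerivAt_id p).const_sub 1).congr_deriv ?_
      field_simp
      rw [hs]
    · simp only [om, ph, if_true]
      refine (hasDerivAt_id p).congr_deriv ?_
      field_simp
      rw [hs]
  have d2 : ∀ x : ι → Bool, HasDerivAt (fun q => wt q x * f x)
      ((∑ e, wt p x * (f x * chi p {e} x)) / sd p) p := by
    intro x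
    refine ((HasDerivAt.fun_finset_prod (u := univ) fun e _ => d1 (x e)).mul_const
      (f x)).congr_deriv ?_
    rw [sum_div, sum_mul]
    refine sum_congr rfl fun e _ => ?_
    rw [wt, ← mul_prod_erase univ _ (mem_univ e), chi, prod_singleton, smul_eq_mul]
    ring
  refine (HasDerivAt.fun_sum (u := univ) fun x _ => d2 x).congr_deriv ?_
  rw [← sum_div, sum_comm]
  rfl

lemma continuous_Ex (f : (ι → Bool) → ℝ) : Continuous fun q => Ex q f := by
  refine continuous_finset_sum _ fun x _ => Continuous.mul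
    (continuous_finset_prod _ fun e _ => ?_) continuous_const
  unfold om
  split_ifs <;> fun_prop

end

lemma main_ineq (hr : 1 ≤ r) (hn : 0 < n) (h0 : 0 < p) (h1 : p < 1) (f : (Edge n r → Bool) → ℝ)
    (hs : ∀ u v x, f (fun e => x (sw u v e)) = f x) (hb : ∀ x, f x = 0 ∨ f x = 1)
    (hm : ∀ x e, f (Function.update x e false) ≤ f (Function.update x e true)) (d : ℕ) {t : ℝ}
    (ht : 0 < t) : Ex p f * (1 - Ex p f) ≤
      (2 / sd p) ^ d * (2 * r / √n) * (∑ e, co p f {e}) + (r / t * (sd p * ∑ e, co p f {e}) +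
        r * t ^ (r - 1) * (Ex p f * (1 - Ex p f))) / (d + 1) := by
  have hC : 0 ≤ 2 / sd p := (div_pos two_pos (sd_pos h0 h1)).le
  have ha : ∀ u v S, co p f (S.map (sw u v).toEmbedding) = co p f S := fun u v S =>
    co_perm f (sw u v) (hs u v) S
  have hi := high_le hr (fun S => co p f S ^ 2) (fun _ => sq_nonneg _)
    (fun u v S => by rw [ha]) ht
  rw [sum_card_co h0 h1 hb hm, var_eq h0 h1 hb] at hi
  have hB : ∀ e, 0 ≤ co p f {e} := fun e => by
    rw [← Ex_abs_dd h0 h1 hb hm]; exact Ex_nonneg h0.le h1.le fun x => abs_nonneg _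
  have hB' : 0 ≤ ∑ e, co p f {e} := sum_nonneg fun e _ => hB e
  have hn' : (0 : ℝ) < n := by exact_mod_cast hn
  have lo : ∑ i, ∑ S ∈ univ.filter fun S => IsTop S i ∧ deg S i ≤ d, co p f S ^ 2 ≤
      (2 / sd p) ^ d * (2 * r / √n) * (∑ e, co p f {e}) := by
    refine (sum_le_sum fun i _ => low_i h0 h1 f hs
      (fun x => by rcases hb x with h | h <;> rw [h] <;> norm_num) d i).trans ?_
    have : ∀ i, ∑ e ∈ univ.filter fun e : Edge n r => i ∈ e.1, Ex p (fun x => |dd p e f x|) =
        r * (∑ e, co p f {e}) / n := by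
      intro i
      rw [← star_sum (fun e => co p f {e}) (fun u v e => by rw [← ha u v {e}]; rfl) i]
      simp only [Ex_abs_dd h0 h1 hb hm]
      field_simp
    simp only [this]
    rw [← sum_mul, ← mul_sum]
    calc _ ≤ (2 / sd p) ^ d * (2 * √n) * (r * (∑ e, co p f {e}) / n) := by
          gcongr; exact sum_inv_sqrt n
      _ = _ := by
          have a := Real.sq_sqrt hn'.le
          have b := Real.sqrt_pos.2 hn'
          generalize √(n : ℝ) = m at *
          rw [← a]
          field_simp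
  rw [← var_eq h0 h1 hb, sum_top hr] at *
  refine le_trans ?_ (add_le_add lo (div_le_div_of_nonneg_right hi (by positivity)))
  rw [sum_div, ← sum_add_distrib]
  refine sum_le_sum fun i _ => ?_
  rw [← filter_filter, sum_filter (s := univ.filter (IsTop · i)), sum_div, ← sum_add_distrib]
  refine sum_le_sum fun S _ => ?_
  split_ifs with h
  · exact le_add_of_nonneg_right (by positivity)
  · rw [zero_add, le_div_iff₀ (by positivity)]
    gcongr
    exact_mod_cast not_le.1 h

lemma num (hr : 2 ≤ r) (hn : 2 ≤ n) {s I V : ℝ} (hs0 : 0 < s) (hs1 : s ≤ 1 / 2) (hI : 0 ≤ I)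
    (H : ∀ (d : ℕ) (t : ℝ), 0 < t → V ≤ (2 / s) ^ d * (2 * r / √n) * (s * I) +
      (r / t * (s * (s * I)) + r * t ^ (r - 1) * V) / (d + 1)) :
    Real.log n ^ ((r : ℝ) / (r - 1)) * V ≤ 2 * (r * (256 * r + 64)) * I := by
  have hr' : (2 : ℝ) ≤ r := by exact_mod_cast hr
  have hn' : (2 : ℝ) ≤ n := by exact_mod_cast hn
  set l := Real.log n with hl
  have l0 : 0 < l := Real.log_pos (by linarith)
  have c4 : 4 ≤ 2 / s := by rw [le_div_iff₀ hs0]; linarith
  set lam := 4 * Real.log (2 / s) with hlam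
  have lam1 : 1 ≤ lam := by
    have := Real.one_sub_inv_le_log_of_pos (x := 2 / s) (by positivity)
    have : (2 / s)⁻¹ ≤ 4⁻¹ := inv_anti₀ (by norm_num) c4
    linarith
  have lam2 : s * lam ≤ 8 := by
    have := Real.log_le_sub_one_of_pos (x := 2 / s) (by positivity)
    calc s * lam ≤ s * (4 * (2 / s)) := by gcongr; linarith
      _ = 8 := by field_simp; norm_num
  set ρ : ℝ := 1 / (r - 1) with hρ
  have ρ0 : 0 ≤ ρ := div_nonneg one_pos.le (by linarith)
  have ρ1 : ρ ≤ 1 := by rw [hρ, div_le_one (by linarith)]; linarith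
  have eL : l ^ ((r : ℝ) / (r - 1)) = l * l ^ ρ := by
    rw [show (r : ℝ) / (r - 1) = 1 + ρ by
      have : (r : ℝ) - 1 ≠ 0 := by linarith
      rw [hρ]; field_simp; ring, Real.rpow_add l0, Real.rpow_one]
  rw [eL]
  have lρ : 0 < l ^ ρ := Real.rpow_pos_of_pos l0 _
  set d := ⌊l / lam⌋₊ with hd
  have d1 : (d : ℝ) ≤ l / lam := Nat.floor_le (by positivity)
  have d2 : l / lam ≤ d + 1 := (Nat.lt_floor_add_one _).le
  set m := Real.exp (l / 4) with hm
  have m0 : 0 < m := Real.exp_pos _
  have m1 : (2 / s) ^ d ≤ m := by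
    rw [← Real.exp_log (x := 2 / s) (by positivity), ← Real.exp_nat_mul]
    refine Real.exp_le_exp.2 ?_
    rw [le_div_iff₀ (by linarith)] at d1
    linarith
  have m2 : √n = m ^ 2 := by
    rw [hm, ← Real.exp_nat_mul, Real.sqrt_eq_iff_mul_self_eq (by positivity) (by positivity),
      ← Real.exp_add, ← Real.exp_log (x := n) (by linarith)]
    congr 1
    push_cast
    ring
  have m3 : l * l ^ ρ ≤ 64 * m := by
    have a : l ^ ρ ≤ 1 + l := by
      rcases le_total l 1 with h | h
      · linarith [Real.rpow_le_one l0.le h ρ0]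
      · have := Real.rpow_le_rpow_of_exponent_le h ρ1
        rw [Real.rpow_one] at this
        linarith
    have b : m = Real.exp (l / 8) ^ 2 := by
      rw [← Real.exp_nat_mul, hm]; congr 1; push_cast; ring
    have c := Real.add_one_le_exp (l / 8)
    have e : (l / 8 + 1) ^ 2 ≤ m := by rw [b]; gcongr
    nlinarith
  set t := (((d : ℝ) + 1) / (4 * r)) ^ ρ with ht
  have t0 : 0 < t := Real.rpow_pos_of_pos (by positivity) _
  have t1 : t ^ (r - 1) = (d + 1) / (4 * r) := by
    have := Real.rpow_inv_natCast_pow (x := ((d : ℝ) + 1) / (4 * r)) (n := r - 1)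
      (by positivity) (by omega)
    rwa [Nat.cast_sub (by omega), Nat.cast_one, ← one_div] at this
  have t2 : l ^ ρ ≤ 4 * r * lam * t := by
    have a : l ≤ 4 * r * lam * ((d + 1) / (4 * r)) := by
      rw [div_le_iff₀ (by linarith)] at d2
      calc l ≤ (d + 1) * lam := d2
        _ = _ := by field_simp
    calc l ^ ρ ≤ (4 * r * lam * ((d + 1) / (4 * r))) ^ ρ := by gcongr
      _ = (4 * r * lam) ^ ρ * t := Real.mul_rpow (by positivity) (by positivity)
      _ ≤ (4 * r * lam) ^ (1 : ℝ) * t := by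
          gcongr; nlinarith
      _ = _ := by rw [Real.rpow_one]
  have t3 : l * l ^ ρ ≤ 4 * r * lam ^ 2 * (t * (d + 1)) := by
    rw [div_le_iff₀ (by linarith)] at d2
    calc l * l ^ ρ ≤ (d + 1) * lam * (4 * r * lam * t) := by gcongr
      _ = _ := by ring
  have H := H d t t0
  rw [t1, m2] at H
  have e1 : (r / t * (s * (s * I)) + r * ((d + 1) / (4 * r)) * V) / (d + 1) =
      r * s ^ 2 * I / (t * (d + 1)) + V / 4 := by field_simp
  rw [e1] at H
  have L0 : 0 < l * l ^ ρ := by positivity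
  generalize l * l ^ ρ = L at *
  have b1 : L * ((2 / s) ^ d * (2 * r / m ^ 2) * (s * I)) ≤ 64 * r * I := by
    calc _ ≤ 64 * m * (m * (2 * r / m ^ 2) * (1 / 2 * I)) := by gcongr
      _ = _ := by field_simp
  have b2 : L * (r * s ^ 2 * I / (t * (d + 1))) ≤ 256 * r ^ 2 * I := by
    calc _ ≤ 4 * r * lam ^ 2 * (t * (d + 1)) * (r * s ^ 2 * I / (t * (d + 1))) := by gcongr
      _ = 4 * r ^ 2 * I * (s * lam) ^ 2 := by field_simp
      _ ≤ 4 * r ^ 2 * I * 8 ^ 2 := by gcongr
      _ = _ := by ring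
  have := mul_le_mul_of_nonneg_left H L0.le
  have z : 0 ≤ (64 * r + 256 * r ^ 2) * I := by positivity
  nlinarith

end Vale.Agent.P063
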